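import Vale.Agent.P235.Basic

/-!
# P235: acyclicity of `offGraph`
-/

namespace Vale.Agent.P235

open SimpleGraph

variable {V : Type*}

theorem offGraph_support_notMem (G : SimpleGraph V) (A : Set V) {u v : V}
    (p : (offGraph G A).Walk u v) (hu : u ∉ A) : ∀ x ∈ p.support, x ∉ A := by
  induction p with
  | nil =>
    intro x hx
    rw [Walk.support_nil, List.mem_singleton] at hx
    rw [hx]; exact hu
  | cons h p ih =>
    intro x hx
    rw [Walk.support_cons, List.mem_cons] at hx
    rcases hx with rfl | hx
    · exact hu
    · exact ih h.2.2 x hx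

/-- If the induced graph on the complement of `A` is acyclic, so is `offGraph G A`
(same edges, but on the whole vertex set). -/
theorem offGraph_isAcyclic (G : SimpleGraph V) (A : Set V)
    (hA : (G.induce {v | v ∉ A}).IsAcyclic) : (offGraph G A).IsAcyclic := by
  intro v c hc
  have hv : v ∉ A := by
    cases c with
    | nil => exact absurd rfl hc.ne_nil
    | cons h p => exact h.2.1
  have hsupp := offGraph_support_notMem G A c hv
  have hc' : (c.mapLe (offGraph_le G A)).IsCycle := hc.mapLe (offGraph_le G A)
  have hw : ∀ x ∈ (c.mapLe (offGraph_le G A)).support, x ∈ {v | v ∉ A} := by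
    intro x hx
    rw [Walk.support_mapLe_eq_support] at hx
    exact hsupp x hx
  have hmap := Walk.map_induce (s := {v | v ∉ A}) (c.mapLe (offGraph_le G A)) hw
  have hcyc : ((c.mapLe (offGraph_le G A)).induce {v | v ∉ A} hw).IsCycle := by
    apply Walk.IsCycle.of_map (f := (Embedding.induce _).toHom)
    rw [hmap]
    exact hc'
  exact hA _ hcyc

end Vale.Agent.P235
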