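import Vale.Agent.P235.Defs

/-!
# P235: the graph `offGraph G A`, the `l1` distance, basic facts on `wlen`
-/

namespace Vale.Agent.P235

open SimpleGraph

variable {V : Type*}

/-- The graph obtained from `G` by deleting all edges that touch `A`. -/
def offGraph (G : SimpleGraph V) (A : Set V) : SimpleGraph V where
  Adj x y := G.Adj x y ∧ x ∉ A ∧ y ∉ A
  symm := ⟨fun _ _ h => ⟨h.1.symm, h.2.2, h.2.1⟩⟩
  loopless := ⟨fun _ h => G.loopless.irrefl _ h.1⟩

theorem offGraph_le (G : SimpleGraph V) (A : Set V) : offGraph G A ≤ G := fun _ _ h => h.1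

theorem offGraph_anti (G : SimpleGraph V) {A B : Set V} (h : A ⊆ B) :
    offGraph G B ≤ offGraph G A :=
  fun _ _ hh => ⟨hh.1, fun ha => hh.2.1 (h ha), fun ha => hh.2.2 (h ha)⟩

/-- `l1` distance of two real vectors. -/
noncomputable def l1 {ι : Type*} [Fintype ι] (f g : ι → ℝ) : ℝ := ∑ i, |f i - g i|

section l1
variable {ι : Type*} [Fintype ι]

theorem l1_nonneg (f g : ι → ℝ) : 0 ≤ l1 f g := by
  unfold l1
  exact Finset.sum_nonneg (fun i _ => abs_nonneg _)

theorem l1_self (f : ι → ℝ) : l1 f f = 0 := by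
  unfold l1
  simp

theorem l1_comm (f g : ι → ℝ) : l1 f g = l1 g f := by
  unfold l1
  exact Finset.sum_congr rfl (fun i _ => abs_sub_comm _ _)

theorem l1_triangle (f g h : ι → ℝ) : l1 f h ≤ l1 f g + l1 g h := by
  unfold l1
  rw [← Finset.sum_add_distrib]
  exact Finset.sum_le_sum (fun i _ => abs_sub_le _ _ _)

/-- Splitting off one coordinate. -/
theorem l1_eq_add_sum_erase [DecidableEq ι] (f g : ι → ℝ) (v : ι) :
    l1 f g = |f v - g v| + ∑ i ∈ Finset.univ.erase v, |f i - g i| := by
  unfold l1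
  exact (Finset.add_sum_erase Finset.univ (fun i => |f i - g i|) (Finset.mem_univ v)).symm

end l1

section wlen
variable (G : SimpleGraph V) (l : Sym2 V → ℝ)

@[simp] theorem wlen_nil (x : V) : wlen G l (Walk.nil : G.Walk x x) = 0 := by
  simp [wlen]

@[simp] theorem wlen_cons {x y z : V} (h : G.Adj x y) (p : G.Walk y z) :
    wlen G l (Walk.cons h p) = l s(x, y) + wlen G l p := by
  simp [wlen]

theorem wlen_append {x y z : V} (p : G.Walk x y) (q : G.Walk y z) :
    wlen G l (p.append q) = wlen G l p + wlen G l q := by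
  simp [wlen, Walk.edges_append]

theorem wlen_reverse {x y : V} (p : G.Walk x y) : wlen G l p.reverse = wlen G l p := by
  simp [wlen, Walk.edges_reverse, List.map_reverse, List.sum_reverse]

theorem wlen_mapLe {F : SimpleGraph V} (h : F ≤ G) {x y : V} (p : F.Walk x y) :
    wlen G l (p.mapLe h) = wlen F l p := by
  induction p with
  | nil => simp [wlen]
  | cons hadj q ih =>
    have e : (Walk.cons hadj q).mapLe h = Walk.cons (h hadj) (q.mapLe h) := rfl
    rw [e, wlen_cons, wlen_cons, ih]

variable {G l}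

theorem wlen_nonneg (hl : ∀ e ∈ G.edgeSet, 0 ≤ l e) {x y : V} (p : G.Walk x y) :
    0 ≤ wlen G l p := by
  induction p with
  | nil => simp
  | cons hadj q ih =>
    rw [wlen_cons]
    exact add_nonneg (hl _ hadj) ih

end wlen

end Vale.Agent.P235
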