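import Mathlib

/-!
# P235: weighted shortest path metric of a graph

`wlen G l p` is the length of the walk `p` for the edge lengths `l`,
`wdist G l x y` is the infimum of the lengths of all walks from `x` to `y`.
-/

namespace Vale.Agent.P235

variable {V : Type*}

/-- Length of a walk: the sum of the lengths of its edges. -/
noncomputable def wlen (G : SimpleGraph V) (l : Sym2 V → ℝ) {x y : V} (p : G.Walk x y) : ℝ :=
  (p.edges.map l).sum

/-- Shortest path distance: infimum of the lengths of the walks from `x` to `y`. -/
noncomputable def wdist (G : SimpleGraph V) (l : Sym2 V → ℝ) (x y : V) : ℝ :=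
  ⨅ p : G.Walk x y, wlen G l p

end Vale.Agent.P235
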