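import Vale.Agent.P235.Basic

/-!
# P235: existence of a leaf in every finite vertex set of a forest
-/

namespace Vale.Agent.P235

open SimpleGraph

variable {V : Type*}

/-- In a forest every nonempty finite vertex set `S` contains a vertex with at most one
neighbour inside `S`. -/
theorem exists_leaf [Finite V] (F : SimpleGraph V) (hF : F.IsAcyclic) (S : Finset V)
    (hS : S.Nonempty) :
    ∃ v ∈ S, ∀ u ∈ S, ∀ w ∈ S, F.Adj v u → F.Adj v w → u = w := by
  classical
  have hH : (F.induce (S : Set V)).IsAcyclic := hF.induce _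
  have : Nonempty (S : Set V) := ⟨⟨hS.choose, hS.choose_spec⟩⟩
  obtain ⟨a, v, p, hp, hmax⟩ :=
    Walk.exists_isPath_forall_isPath_length_le_length (F.induce (S : Set V))
  have key : ∀ x : (S : Set V), (F.induce (S : Set V)).Adj v x → x = p.penultimate := by
    intro x hadj
    apply hH.eq_penultimate_of_adj_end hp hadj
    by_contra hx
    have h1 : (p.concat hadj).IsPath := hp.concat hx hadj
    have h2 := hmax _ _ _ h1
    rw [Walk.length_concat] at h2
    omega
  refine ⟨v.1, v.2, fun u hu w hw hvu hvw => ?_⟩
  have e1 := key ⟨u, hu⟩ hvu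
  have e2 := key ⟨w, hw⟩ hvw
  have := e1.trans e2.symm
  exact congrArg Subtype.val this

end Vale.Agent.P235
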