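import Vale.Agent.P235.InsertLeaf
import Vale.Agent.P235.Leaf

/-!
# P235: every forest has a truncated embedding
-/

namespace Vale.Agent.P235

open SimpleGraph

variable {V : Type*} [Fintype V]

/-- Every forest has a truncated embedding on every vertex set. -/
theorem exists_goodEmb (F : SimpleGraph V) (hF : F.IsAcyclic) (l : Sym2 V → ℝ)
    (hl : ∀ e ∈ F.edgeSet, 0 ≤ l e) (S : Finset V) :
    ∃ P : V → ℝ → V → ℝ, GoodEmb F l S P := by
  classical
  induction S using Finset.strongInduction with
  | H S ih =>
    rcases S.eq_empty_or_nonempty with rfl | hS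
    · exact ⟨_, goodEmb_empty F l⟩
    · obtain ⟨v, hvS, hleaf⟩ := exists_leaf F hF S hS
      obtain ⟨P, hP⟩ := ih (S.erase v) (Finset.erase_ssubset hvS)
      have hv : v ∉ S.erase v := Finset.notMem_erase v S
      by_cases hex : ∃ u ∈ S.erase v, F.Adj v u
      · obtain ⟨u, hu, hvu⟩ := hex
        have hlu : 0 ≤ l s(v, u) := hl _ ((SimpleGraph.mem_edgeSet F).2 hvu)
        have honly : ∀ w ∈ S.erase v, F.Adj v w → w = u := fun w hw hvw =>
          hleaf w (Finset.mem_of_mem_erase hw) u (Finset.mem_of_mem_erase hu) hvw hvu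
        have h := goodEmb_insert_leaf F l (S.erase v) P hP v hv u hu hvu hlu honly
        rw [Finset.insert_erase hvS] at h
        exact ⟨_, h⟩
      · have hiso : ∀ u ∈ S.erase v, ¬ F.Adj v u := fun u hu hvu => hex ⟨u, hu, hvu⟩
        have h := goodEmb_insert_isolated F l (S.erase v) P hP v hv hiso
        rw [Finset.insert_erase hvS] at h
        exact ⟨_, h⟩

end Vale.Agent.P235
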