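import Vale.Agent.P235.Basic

/-!
# P235: the truncated upward path embedding of a forest

`GoodEmb F l S P`: `P x s` (a vector indexed by the vertices) is the indicator of the
upward path of length `s` starting at `x`, for the vertices `x` of `S`.
-/

namespace Vale.Agent.P235

open SimpleGraph

variable {V : Type*} [Fintype V]

/-- The properties of the truncated embedding on the vertex set `S`. -/
structure GoodEmb (F : SimpleGraph V) (l : Sym2 V → ℝ) (S : Finset V)
    (P : V → ℝ → V → ℝ) : Prop where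
  supp : ∀ x ∈ S, ∀ s : ℝ, ∀ v, v ∉ S → P x s v = 0
  norm : ∀ x ∈ S, ∀ s : ℝ, 0 ≤ s → l1 (P x s) 0 = s
  lip : ∀ x ∈ S, ∀ s t : ℝ, 0 ≤ s → 0 ≤ t → l1 (P x s) (P x t) ≤ |s - t|
  adj : ∀ x ∈ S, ∀ y ∈ S, F.Adj x y → ∀ s : ℝ, 0 ≤ s → l1 (P x s) (P y s) ≤ 2 * l s(x, y)
  low : ∀ x ∈ S, ∀ y ∈ S, ∀ s t : ℝ, 0 ≤ s → 0 ≤ t →
    s + t ≤ l1 (P x s) (P y t) ∨ ∃ p : F.Walk x y, wlen F l p ≤ l1 (P x s) (P y t)

theorem goodEmb_empty (F : SimpleGraph V) (l : Sym2 V → ℝ) :
    GoodEmb F l ∅ (fun _ _ _ => 0) := by
  refine ⟨?_, ?_, ?_, ?_, ?_⟩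
  · intro x hx
    exact absurd hx (Finset.notMem_empty x)
  · intro x hx
    exact absurd hx (Finset.notMem_empty x)
  · intro x hx
    exact absurd hx (Finset.notMem_empty x)
  · intro x hx
    exact absurd hx (Finset.notMem_empty x)
  · intro x hx
    exact absurd hx (Finset.notMem_empty x)

/-- distance of two multiples of the same unit vector -/
theorem l1_single_single [DecidableEq V] (v : V) (s t : ℝ) :
    l1 (Pi.single v s : V → ℝ) (Pi.single v t) = |s - t| := by
  rw [l1_eq_add_sum_erase _ _ v, Pi.single_eq_same, Pi.single_eq_same]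
  have h0 : ∑ i ∈ Finset.univ.erase v,
      |(Pi.single v s : V → ℝ) i - (Pi.single v t : V → ℝ) i| = 0 := by
    refine Finset.sum_eq_zero fun i hi => ?_
    have hne : i ≠ v := (Finset.mem_erase.1 hi).1
    rw [Pi.single_eq_of_ne hne, Pi.single_eq_of_ne hne, sub_self, abs_zero]
  rw [h0, add_zero]

/-- distance of a multiple of a unit vector from a vector that vanishes at that coordinate -/
theorem l1_single_of_zero [DecidableEq V] (v : V) (s : ℝ) (hs : 0 ≤ s) (g : V → ℝ)
    (hg : g v = 0) : l1 (Pi.single v s : V → ℝ) g = s + l1 g 0 := by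
  rw [l1_eq_add_sum_erase _ _ v, l1_eq_add_sum_erase g 0 v, Pi.single_eq_same, hg]
  have h0 : ∑ i ∈ Finset.univ.erase v, |(Pi.single v s : V → ℝ) i - g i|
      = ∑ i ∈ Finset.univ.erase v, |g i - (0 : V → ℝ) i| := by
    refine Finset.sum_congr rfl fun i hi => ?_
    have hne : i ≠ v := (Finset.mem_erase.1 hi).1
    rw [Pi.single_eq_of_ne hne, Pi.zero_apply, zero_sub, sub_zero, abs_neg]
  rw [h0, Pi.zero_apply, sub_zero, sub_zero, abs_zero, zero_add, abs_of_nonneg hs]

/-- Adding an isolated vertex (no neighbour in `S`). -/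
theorem goodEmb_insert_isolated [DecidableEq V] (F : SimpleGraph V) (l : Sym2 V → ℝ)
    (S : Finset V) (P : V → ℝ → V → ℝ) (hP : GoodEmb F l S P) (v : V) (hv : v ∉ S)
    (hiso : ∀ u ∈ S, ¬ F.Adj v u) :
    GoodEmb F l (insert v S)
      (fun x s => if x = v then Pi.single v s else P x s) := by
  have hne : ∀ x ∈ S, x ≠ v := fun x hx h => hv (h ▸ hx)
  refine ⟨?_, ?_, ?_, ?_, ?_⟩
  · intro x hx s w hw
    have hw1 : w ≠ v := fun h => hw (h ▸ Finset.mem_insert_self v S)
    have hw2 : w ∉ S := fun h => hw (Finset.mem_insert_of_mem h)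
    rcases Finset.mem_insert.1 hx with rfl | hxS
    · simp only [if_true]
      rw [Pi.single_eq_of_ne hw1]
    · simp only [if_neg (hne x hxS)]
      exact hP.supp x hxS s w hw2
  · intro x hx s hs
    rcases Finset.mem_insert.1 hx with rfl | hxS
    · simp only [if_true]
      rw [← Pi.single_zero x, l1_single_single, sub_zero, abs_of_nonneg hs]
    · simp only [if_neg (hne x hxS)]
      exact hP.norm x hxS s hs
  · intro x hx s t hs ht
    rcases Finset.mem_insert.1 hx with rfl | hxS
    · simp only [if_true]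
      rw [l1_single_single]
    · simp only [if_neg (hne x hxS)]
      exact hP.lip x hxS s t hs ht
  · intro x hx y hy hxy s hs
    rcases Finset.mem_insert.1 hx with rfl | hxS
    · rcases Finset.mem_insert.1 hy with rfl | hyS
      · exact absurd hxy (F.loopless.irrefl _)
      · exact absurd hxy (hiso y hyS)
    · rcases Finset.mem_insert.1 hy with rfl | hyS
      · exact absurd hxy.symm (hiso x hxS)
      · simp only [if_neg (hne x hxS), if_neg (hne y hyS)]
        exact hP.adj x hxS y hyS hxy s hs
  · intro x hx y hy s t hs ht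
    rcases Finset.mem_insert.1 hx with rfl | hxS
    · rcases Finset.mem_insert.1 hy with rfl | hyS
      · right
        refine ⟨Walk.nil, ?_⟩
        rw [wlen_nil]
        exact l1_nonneg _ _
      · left
        simp only [if_true, if_neg (hne y hyS)]
        rw [l1_single_of_zero x s hs (P y t) (hP.supp y hyS t x hv), hP.norm y hyS t ht]
    · rcases Finset.mem_insert.1 hy with rfl | hyS
      · left
        simp only [if_true, if_neg (hne x hxS)]
        rw [l1_comm, l1_single_of_zero y t ht (P x s) (hP.supp x hxS s y hv),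
          hP.norm x hxS s hs, add_comm]
      · simp only [if_neg (hne x hxS), if_neg (hne y hyS)]
        exact hP.low x hxS y hyS s t hs ht

/-- Along a walk of the forest inside `S` the embedding moves by at most twice the length. -/
theorem GoodEmb.walk_le {F : SimpleGraph V} {l : Sym2 V → ℝ} {S : Finset V}
    {P : V → ℝ → V → ℝ} (hP : GoodEmb F l S P) {x y : V} (p : F.Walk x y)
    (hp : ∀ v ∈ p.support, v ∈ S) (s : ℝ) (hs : 0 ≤ s) :
    l1 (P x s) (P y s) ≤ 2 * wlen F l p := by
  induction p with
  | nil =>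
    rw [l1_self, wlen_nil, mul_zero]
  | @cons u w z h q ih =>
    have hu : u ∈ S := hp u (by simp)
    have hq : ∀ a ∈ q.support, a ∈ S := fun a ha => hp a (by
      rw [Walk.support_cons]
      exact List.mem_cons_of_mem _ ha)
    have hw : w ∈ S := hq w q.start_mem_support
    have h1 := hP.adj u hu w hw h s hs
    have h2 := ih hq
    have h3 := l1_triangle (P u s) (P w s) (P z s)
    rw [wlen_cons]
    linarith

end Vale.Agent.P235
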