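import Vale.Agent.P235.WDist

/-!
# P235: distance to the set `A`, walks avoiding `A`, the Frechet coordinates
-/

namespace Vale.Agent.P235

open SimpleGraph

variable {V : Type*}

/-- Distance to the set `A`. -/
noncomputable def hmin (G : SimpleGraph V) (l : Sym2 V → ℝ) (A : Finset V) (hne : A.Nonempty)
    (x : V) : ℝ := A.inf' hne (fun a => wdist G l x a)

variable {G : SimpleGraph V} {l : Sym2 V → ℝ} {A : Finset V} (hne : A.Nonempty)

theorem hmin_le {a : V} (ha : a ∈ A) (x : V) : hmin G l A hne x ≤ wdist G l x a := by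
  unfold hmin
  exact Finset.inf'_le (fun a => wdist G l x a) ha

theorem exists_hmin_eq (x : V) : ∃ a ∈ A, wdist G l x a = hmin G l A hne x := by
  unfold hmin
  obtain ⟨a, ha, h⟩ := Finset.exists_mem_eq_inf' hne (fun a => wdist G l x a)
  exact ⟨a, ha, h.symm⟩

theorem hmin_nonneg (hl : ∀ e ∈ G.edgeSet, 0 ≤ l e) (x : V) : 0 ≤ hmin G l A hne x := by
  unfold hmin
  exact Finset.le_inf' hne _ (fun a _ => wdist_nonneg hl x a)

theorem abs_hmin_sub_le (hG : G.Connected) (hl : ∀ e ∈ G.edgeSet, 0 ≤ l e) (x y : V) :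
    |hmin G l A hne x - hmin G l A hne y| ≤ wdist G l x y := by
  rw [abs_le]
  constructor
  · obtain ⟨a, ha, h⟩ := exists_hmin_eq (G := G) (l := l) hne x
    have h1 := hmin_le (G := G) (l := l) hne ha y
    have h2 := wdist_triangle hG hl y x a
    have h3 := wdist_comm (G := G) (l := l) x y
    linarith
  · obtain ⟨a, ha, h⟩ := exists_hmin_eq (G := G) (l := l) hne y
    have h1 := hmin_le (G := G) (l := l) hne ha x
    have h2 := wdist_triangle hG hl x y a
    linarith

/-- A walk of `G` that avoids `A` is a walk of `offGraph G A` of the same length. -/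
theorem exists_off_walk {x y : V} (p : G.Walk x y) (hp : ∀ v ∈ p.support, v ∉ A) :
    ∃ q : (offGraph G (A : Set V)).Walk x y,
      wlen (offGraph G (A : Set V)) l q = wlen G l p ∧ ∀ v ∈ q.support, v ∉ A := by
  induction p with
  | nil =>
    refine ⟨Walk.nil, by simp, ?_⟩
    intro v hv
    apply hp v
    simpa using hv
  | @cons u v w h p ih =>
    have hu : u ∉ A := hp u (by simp)
    have hv : v ∉ A := hp v (by simp)
    obtain ⟨q, hq, hq2⟩ := ih (fun z hz => hp z (by simp [hz]))
    have hadj : (offGraph G (A : Set V)).Adj u v :=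
      ⟨h, by simpa using hu, by simpa using hv⟩
    refine ⟨Walk.cons hadj q, by simp [hq], ?_⟩
    intro z hz
    rw [Walk.support_cons, List.mem_cons] at hz
    rcases hz with rfl | hz
    · exact hu
    · exact hq2 z hz

/-- Upper bound for the Frechet part. -/
theorem sum_frechet_le (hG : G.Connected) (hl : ∀ e ∈ G.edgeSet, 0 ≤ l e) (x y : V) :
    ∑ a ∈ A, |wdist G l x a - wdist G l y a| ≤ (A.card : ℝ) * wdist G l x y := by
  calc ∑ a ∈ A, |wdist G l x a - wdist G l y a| ≤ ∑ _a ∈ A, wdist G l x y :=
        Finset.sum_le_sum (fun a _ => abs_wdist_sub_le hG hl x y a)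
    _ = (A.card : ℝ) * wdist G l x y := by
        rw [Finset.sum_const, nsmul_eq_mul]

/-- One Frechet coordinate is a lower bound for the sum. -/
theorem le_sum_frechet {a : V} (ha : a ∈ A) (x y : V) :
    |wdist G l x a - wdist G l y a| ≤ ∑ b ∈ A, |wdist G l x b - wdist G l y b| := by
  exact Finset.single_le_sum (f := fun b => |wdist G l x b - wdist G l y b|)
    (fun b _ => abs_nonneg _) ha

end Vale.Agent.P235
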