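import Vale.Agent.P235.GoodEmb

/-!
# P235: adding a leaf to a truncated embedding
-/

namespace Vale.Agent.P235

open SimpleGraph

variable {V : Type*} [Fintype V]

private theorem l1_new_old [DecidableEq V] (a : ℝ) (ha : 0 ≤ a) (f g : V → ℝ) (v : V)
    (hf : f v = 0) (hg : g v = 0) :
    l1 (fun w => if w = v then a else f w) g = a + l1 f g := by
  rw [l1_eq_add_sum_erase _ g v, l1_eq_add_sum_erase f g v]
  simp only [if_true, hf, hg, sub_zero, abs_zero, zero_add, abs_of_nonneg ha]
  congr 1
  apply Finset.sum_congr rfl
  intro i hi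
  rw [if_neg (Finset.ne_of_mem_erase hi)]

private theorem l1_new_new [DecidableEq V] (a b : ℝ) (f g : V → ℝ) (v : V)
    (hf : f v = 0) (hg : g v = 0) :
    l1 (fun w => if w = v then a else f w) (fun w => if w = v then b else g w)
      = |a - b| + l1 f g := by
  rw [l1_eq_add_sum_erase _ _ v, l1_eq_add_sum_erase f g v]
  simp only [if_true, hf, hg, sub_zero, abs_zero, zero_add]
  congr 1
  apply Finset.sum_congr rfl
  intro i hi
  rw [if_neg (Finset.ne_of_mem_erase hi), if_neg (Finset.ne_of_mem_erase hi)]

private theorem min_add_max (s L : ℝ) :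
    min s L + max (s - L) 0 = s := by
  rcases le_total s L with h | h
  · rw [min_eq_left h, max_eq_right (by linarith)]; ring
  · rw [min_eq_right h, max_eq_left (by linarith)]; ring

private theorem abs_min_add_abs_max (s t L : ℝ) :
    |min s L - min t L| + |max (s - L) 0 - max (t - L) 0| ≤ |s - t| := by
  rcases le_total s L with h | h <;> rcases le_total t L with h' | h'
  · rw [min_eq_left h, min_eq_left h', max_eq_right (by linarith), max_eq_right (by linarith)]
    simp
  · rw [min_eq_left h, min_eq_right h', max_eq_right (by linarith), max_eq_left (by linarith)]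
    rw [abs_of_nonpos (by linarith), abs_of_nonpos (by linarith), abs_of_nonpos (by linarith)]
    linarith
  · rw [min_eq_right h, min_eq_left h', max_eq_left (by linarith), max_eq_right (by linarith)]
    rw [abs_of_nonneg (by linarith), abs_of_nonneg (by linarith), abs_of_nonneg (by linarith)]
    linarith
  · rw [min_eq_right h, min_eq_right h', max_eq_left (by linarith), max_eq_left (by linarith)]
    simp

/-- The lower bound for the pair (new vertex, old vertex). -/
private theorem low_new_old [DecidableEq V] (F : SimpleGraph V) (l : Sym2 V → ℝ)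
    (S : Finset V) (P : V → ℝ → V → ℝ) (hP : GoodEmb F l S P) (v : V)
    (u : V) (hu : u ∈ S) (hvu : F.Adj v u) (hl : 0 ≤ l s(v, u))
    (y : V) (hy : y ∈ S) (s t : ℝ) (hs : 0 ≤ s) (ht : 0 ≤ t) :
    s + t ≤ min s (l s(v, u)) + l1 (P u (max (s - l s(v, u)) 0)) (P y t) ∨
      ∃ p : F.Walk v y, wlen F l p ≤
        min s (l s(v, u)) + l1 (P u (max (s - l s(v, u)) 0)) (P y t) := by
  have hs' : 0 ≤ max (s - l s(v, u)) 0 := le_max_right _ _
  have hsum := min_add_max s (l s(v, u))
  rcases hP.low u hu y hy _ t hs' ht with h | ⟨p, hp⟩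
  · left; linarith
  · rcases le_total (l s(v, u)) s with h | h
    · right
      refine ⟨Walk.cons hvu p, ?_⟩
      rw [wlen_cons, min_eq_right h]
      linarith
    · left
      rw [min_eq_left h, max_eq_right (by linarith)]
      have h1 : l1 (P y t) 0 = t := hP.norm y hy t ht
      have h2 : l1 (P u 0) 0 = 0 := hP.norm u hu 0 le_rfl
      have h3 := l1_triangle (P y t) (P u 0) 0
      rw [l1_comm (P y t) (P u 0)] at h3
      linarith

/-- Adding a leaf `v` whose only neighbour in `S` is `u`. -/
theorem goodEmb_insert_leaf [DecidableEq V] (F : SimpleGraph V) (l : Sym2 V → ℝ)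
    (S : Finset V) (P : V → ℝ → V → ℝ) (hP : GoodEmb F l S P) (v : V) (hv : v ∉ S)
    (u : V) (hu : u ∈ S) (hvu : F.Adj v u) (hl : 0 ≤ l s(v, u))
    (honly : ∀ w ∈ S, F.Adj v w → w = u) :
    GoodEmb F l (insert v S)
      (fun x s => if x = v then
          (fun w => if w = v then min s (l s(v, u)) else P u (max (s - l s(v, u)) 0) w)
        else P x s) := by
  have hne : ∀ x ∈ S, x ≠ v := fun x hx h => hv (h ▸ hx)
  have hPv : ∀ x ∈ S, ∀ s : ℝ, P x s v = 0 := fun x hx s => hP.supp x hx s v hv
  have hmin : ∀ s : ℝ, 0 ≤ s → 0 ≤ min s (l s(v, u)) := fun s hs => le_min hs hl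
  have hmax : ∀ s : ℝ, 0 ≤ max (s - l s(v, u)) 0 := fun s => le_max_right _ _
  constructor
  · -- supp
    intro x hx s w hw
    rw [Finset.mem_insert, not_or] at hw
    rcases Finset.mem_insert.1 hx with rfl | hx
    · simp only [if_true, if_neg hw.1]
      exact hP.supp u hu _ w hw.2
    · simp only [if_neg (hne x hx)]
      exact hP.supp x hx s w hw.2
  · -- norm
    intro x hx s hs
    rcases Finset.mem_insert.1 hx with rfl | hx
    · simp only [if_true]
      rw [l1_new_old _ (hmin s hs) _ _ _ (hPv u hu _) rfl, hP.norm u hu _ (hmax s)]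
      exact min_add_max s _
    · simp only [if_neg (hne x hx)]
      exact hP.norm x hx s hs
  · -- lip
    intro x hx s t hs ht
    rcases Finset.mem_insert.1 hx with rfl | hx
    · simp only [if_true]
      rw [l1_new_new _ _ _ _ _ (hPv u hu _) (hPv u hu _)]
      have h1 := hP.lip u hu _ _ (hmax s) (hmax t)
      have h2 := abs_min_add_abs_max s t (l s(x, u))
      linarith
    · simp only [if_neg (hne x hx)]
      exact hP.lip x hx s t hs ht
  · -- adj
    intro x hx y hy hxy s hs
    have key : l1 (fun w => if w = v then min s (l s(v, u)) else P u (max (s - l s(v, u)) 0) w)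
        (P u s) ≤ 2 * l s(v, u) := by
      rw [l1_new_old _ (hmin s hs) _ _ _ (hPv u hu _) (hPv u hu _)]
      have h1 := hP.lip u hu _ s (hmax s) hs
      have h2 : |max (s - l s(v, u)) 0 - s| ≤ l s(v, u) := by
        rcases le_total s (l s(v, u)) with h | h
        · rw [max_eq_right (by linarith), abs_of_nonpos (by linarith)]; linarith
        · rw [max_eq_left (by linarith), abs_of_nonpos (by linarith)]; linarith
      have h3 : min s (l s(v, u)) ≤ l s(v, u) := min_le_right _ _
      linarith
    rcases Finset.mem_insert.1 hx with hxv | hx'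
    · rcases Finset.mem_insert.1 hy with hyv | hy'
      · rw [hxv, hyv] at hxy
        exact absurd hxy (F.loopless.irrefl _)
      · rw [hxv] at hxy
        have hyu := honly y hy' hxy
        rw [hxv, hyu]
        simp only [if_true, if_neg (hne u hu)]
        exact key
    · rcases Finset.mem_insert.1 hy with hyv | hy'
      · rw [hyv] at hxy
        have hxu := honly x hx' hxy.symm
        rw [hyv, hxu]
        simp only [if_true, if_neg (hne u hu)]
        rw [l1_comm, show s(u, v) = s(v, u) from Sym2.eq_swap]
        exact key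
      · simp only [if_neg (hne x hx'), if_neg (hne y hy')]
        exact hP.adj x hx' y hy' hxy s hs
  · -- low
    intro x hx y hy s t hs ht
    rcases Finset.mem_insert.1 hx with hxv | hx'
    · rcases Finset.mem_insert.1 hy with hyv | hy'
      · right
        rw [hxv, hyv]
        refine ⟨Walk.nil, ?_⟩
        rw [wlen_nil]
        exact l1_nonneg _ _
      · rw [hxv]
        simp only [if_true, if_neg (hne y hy')]
        rw [l1_new_old _ (hmin s hs) _ _ _ (hPv u hu _) (hPv y hy' _)]
        exact low_new_old F l S P hP v u hu hvu hl y hy' s t hs ht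
    · rcases Finset.mem_insert.1 hy with hyv | hy'
      · rw [hyv]
        simp only [if_true, if_neg (hne x hx')]
        rw [l1_comm, l1_new_old _ (hmin t ht) _ _ _ (hPv u hu _) (hPv x hx' _)]
        rcases low_new_old F l S P hP v u hu hvu hl x hx' t s ht hs with h | ⟨p, hp⟩
        · left; linarith
        · right
          refine ⟨p.reverse, ?_⟩
          rw [wlen_reverse]
          exact hp
      · simp only [if_neg (hne x hx'), if_neg (hne y hy')]
        exact hP.low x hx' y hy' s t hs ht

end Vale.Agent.P235
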