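import Vale.Agent.P235.TreeUpper

/-!
# P235: the lower bound for the embedding
-/

namespace Vale.Agent.P235

open SimpleGraph

variable {V : Type*} [Fintype V] [DecidableEq V]

variable {G : SimpleGraph V} {l : Sym2 V → ℝ} {A : Finset V} (hne : A.Nonempty)
  {P : V → ℝ → V → ℝ}
  (hP : GoodEmb (offGraph G (A : Set V)) l (Finset.univ.filter (fun v => v ∉ A)) P)

include hP in
/-- Lower bound. -/
theorem wdist_le_two_mul (hG : G.Connected) (hl : ∀ e ∈ G.edgeSet, 0 ≤ l e) (x y : V) :
    wdist G l x y ≤ 2 * (l1 (treePart G l A hne P x) (treePart G l A hne P y)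
      + ∑ a ∈ A, |wdist G l x a - wdist G l y a|) := by
  have hT : 0 ≤ l1 (treePart G l A hne P x) (treePart G l A hne P y) := l1_nonneg _ _
  have hS : 0 ≤ ∑ a ∈ A, |wdist G l x a - wdist G l y a| :=
    Finset.sum_nonneg (fun a _ => abs_nonneg _)
  have hd : 0 ≤ wdist G l x y := wdist_nonneg hl x y
  by_cases hx : x ∈ A
  · have h1 := le_sum_frechet (G := G) (l := l) hx x y
    rw [wdist_self hl x, wdist_comm y x, zero_sub, abs_neg, abs_of_nonneg hd] at h1
    linarith
  by_cases hy : y ∈ A
  · have h1 := le_sum_frechet (G := G) (l := l) hy x y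
    rw [wdist_self hl y, sub_zero, abs_of_nonneg hd] at h1
    linarith
  have hxS : x ∈ Finset.univ.filter (fun v => v ∉ A) := by simp [hx]
  have hyS : y ∈ Finset.univ.filter (fun v => v ∉ A) := by simp [hy]
  have hlow := hP.low x hxS y hyS (hmin G l A hne x) (hmin G l A hne y)
    (hmin_nonneg hne hl x) (hmin_nonneg hne hl y)
  have hTx : treePart G l A hne P x = P x (hmin G l A hne x) := by
    unfold treePart
    rw [if_neg hx]
  have hTy : treePart G l A hne P y = P y (hmin G l A hne y) := by
    unfold treePart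
    rw [if_neg hy]
  rw [hTx, hTy] at hT ⊢
  rcases hlow with h | ⟨q, hq⟩
  · obtain ⟨a, ha, hxa⟩ := exists_hmin_eq (G := G) (l := l) hne x
    obtain ⟨b, hb, hyb⟩ := exists_hmin_eq (G := G) (l := l) hne y
    have t1 := wdist_triangle hG hl x a y
    have t2 := wdist_triangle hG hl a b y
    have t3 := wdist_triangle hG hl a y b
    have c1 := wdist_comm (G := G) (l := l) b y
    have c2 := wdist_comm (G := G) (l := l) a y
    have h1 := le_sum_frechet (G := G) (l := l) ha x y
    have h2 := neg_abs_le (wdist G l x a - wdist G l y a)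
    linarith
  · have h1 := wdist_le_wlen hl (q.mapLe (offGraph_le G (A : Set V)))
    rw [wlen_mapLe] at h1
    linarith

end Vale.Agent.P235
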