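import Vale.Agent.P235.Lower
import Vale.Agent.P235.ExistsEmb
import Vale.Agent.P235.Acyclic

/-!
# P235: assembling the embedding

The embedding is `x ↦ 2 * (treePart x, (d(x,a))_{a ∈ A})`.
-/

namespace Vale.Agent.P235

open SimpleGraph

variable {V : Type*} [Fintype V] [DecidableEq V]

/-- Embedding theorem for a nonempty set `A` meeting all cycles. -/
theorem embed_of_nonempty (G : SimpleGraph V) (hG : G.Connected) (l : Sym2 V → ℝ)
    (hl : ∀ e ∈ G.edgeSet, 0 ≤ l e) (A : Finset V) (hne : A.Nonempty)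
    (hA : (offGraph G (A : Set V)).IsAcyclic) :
    ∃ (n : ℕ) (f : V → Fin n → ℝ), ∀ x y,
      wdist G l x y ≤ ∑ i, |f x i - f y i| ∧
      ∑ i, |f x i - f y i| ≤ (2 * (A.card : ℝ) + 6) * wdist G l x y := by
  have hl' : ∀ e ∈ (offGraph G (A : Set V)).edgeSet, 0 ≤ l e := fun e he =>
    hl e (SimpleGraph.edgeSet_mono (offGraph_le G (A : Set V)) he)
  obtain ⟨P, hP⟩ := exists_goodEmb (offGraph G (A : Set V)) hA l hl'
    (Finset.univ.filter (fun v => v ∉ A))
  let g : V → (V ⊕ V) → ℝ := fun x => Sum.elim (fun v => 2 * treePart G l A hne P x v)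
    (fun a => if a ∈ A then 2 * wdist G l x a else 0)
  have hsum : ∀ x y, ∑ i, |g x i - g y i| =
      2 * (l1 (treePart G l A hne P x) (treePart G l A hne P y)
        + ∑ a ∈ A, |wdist G l x a - wdist G l y a|) := by
    intro x y
    rw [Fintype.sum_sum_type]
    have h1 : ∑ v, |g x (Sum.inl v) - g y (Sum.inl v)|
        = 2 * l1 (treePart G l A hne P x) (treePart G l A hne P y) := by
      unfold l1
      rw [Finset.mul_sum]
      apply Finset.sum_congr rfl
      intro v _
      simp only [g, Sum.elim_inl]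
      rw [← mul_sub, abs_mul, abs_of_nonneg (by norm_num : (0:ℝ) ≤ 2)]
    have h2 : ∑ a, |g x (Sum.inr a) - g y (Sum.inr a)|
        = 2 * ∑ a ∈ A, |wdist G l x a - wdist G l y a| := by
      rw [Finset.mul_sum, ← Finset.sum_filter_add_sum_filter_not Finset.univ (fun a => a ∈ A)]
      have h3 : ∑ a ∈ Finset.univ.filter (fun a => ¬ a ∈ A),
          |g x (Sum.inr a) - g y (Sum.inr a)| = 0 := by
        apply Finset.sum_eq_zero
        intro a ha
        have ha' : a ∉ A := (Finset.mem_filter.1 ha).2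
        simp only [g, Sum.elim_inr, if_neg ha', sub_self, abs_zero]
      rw [h3, add_zero, Finset.filter_mem_eq_inter, Finset.univ_inter]
      apply Finset.sum_congr rfl
      intro a ha
      simp only [g, Sum.elim_inr, if_pos ha]
      rw [← mul_sub, abs_mul, abs_of_nonneg (by norm_num : (0:ℝ) ≤ 2)]
    rw [h1, h2]
    ring
  let e := Fintype.equivFin (V ⊕ V)
  refine ⟨Fintype.card (V ⊕ V), fun x i => g x (e.symm i), ?_⟩
  intro x y
  have hre : ∑ i, |g x (e.symm i) - g y (e.symm i)| = ∑ j, |g x j - g y j| :=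
    Equiv.sum_comp e.symm (fun j => |g x j - g y j|)
  simp only []
  rw [hre, hsum]
  constructor
  · exact wdist_le_two_mul hne hP hG hl x y
  · have h1 := l1_treePart_le hne hP hG hl x y
    have h2 := sum_frechet_le (A := A) hG hl x y
    nlinarith

/-- Main theorem. -/
theorem main (G : SimpleGraph V) (hG : G.Connected) (l : Sym2 V → ℝ)
    (hl : ∀ e ∈ G.edgeSet, 0 < l e) (A : Finset V)
    (hA : (G.induce {v | v ∉ A}).IsAcyclic) :
    ∃ (n : ℕ) (f : V → Fin n → ℝ), ∀ x y,
      wdist G l x y ≤ ∑ i, |f x i - f y i| ∧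
      ∑ i, |f x i - f y i| ≤ (2 * (A.card : ℝ) + 8) * wdist G l x y := by
  have hl0 : ∀ e ∈ G.edgeSet, 0 ≤ l e := fun e he => le_of_lt (hl e he)
  obtain ⟨a0⟩ := hG.nonempty
  have hne : (insert a0 A).Nonempty := Finset.insert_nonempty a0 A
  have hac : (offGraph G (A : Set V)).IsAcyclic := offGraph_isAcyclic G (A : Set V) hA
  have hsub : (A : Set V) ⊆ ((insert a0 A : Finset V) : Set V) := by
    intro v hv
    simp only [Finset.coe_insert]
    exact Set.mem_insert_of_mem _ hv
  have hac' : (offGraph G ((insert a0 A : Finset V) : Set V)).IsAcyclic :=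
    hac.anti (offGraph_anti G hsub)
  obtain ⟨n, f, hf⟩ := embed_of_nonempty G hG l hl0 (insert a0 A) hne hac'
  refine ⟨n, f, fun x y => ⟨(hf x y).1, le_trans (hf x y).2 ?_⟩⟩
  have hcard : ((insert a0 A).card : ℝ) ≤ (A.card : ℝ) + 1 := by
    exact_mod_cast Finset.card_insert_le a0 A
  have hd := wdist_nonneg hl0 x y
  apply mul_le_mul_of_nonneg_right _ hd
  linarith

end Vale.Agent.P235
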