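import Vale.Agent.P235.Hmin
import Vale.Agent.P235.GoodEmb

/-!
# P235: the forest part of the embedding and its upper bound

`A` is a nonempty finite set of vertices such that `offGraph G A` is a forest.
`treePart x` is the truncated upward path of length `hmin x = min_{a ∈ A} d(x,a)`.
-/

namespace Vale.Agent.P235

open SimpleGraph

variable {V : Type*} [Fintype V] [DecidableEq V]

/-- The forest part of the embedding. -/
noncomputable def treePart (G : SimpleGraph V) (l : Sym2 V → ℝ) (A : Finset V) (hne : A.Nonempty)
    (P : V → ℝ → V → ℝ) (x : V) : V → ℝ :=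
  if x ∈ A then 0 else P x (hmin G l A hne x)

variable {G : SimpleGraph V} {l : Sym2 V → ℝ} {A : Finset V} (hne : A.Nonempty)
  {P : V → ℝ → V → ℝ}
  (hP : GoodEmb (offGraph G (A : Set V)) l (Finset.univ.filter (fun v => v ∉ A)) P)

include hP in
/-- The norm of the forest part is `hmin` (or `0` on `A`). -/
theorem l1_treePart_zero_le (hl : ∀ e ∈ G.edgeSet, 0 ≤ l e) (x : V) :
    l1 (treePart G l A hne P x) 0 ≤ hmin G l A hne x := by
  unfold treePart
  by_cases hx : x ∈ A
  · rw [if_pos hx, l1_self]
    exact hmin_nonneg hne hl x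
  · rw [if_neg hx]
    have hxS : x ∈ Finset.univ.filter (fun v => v ∉ A) := by simp [hx]
    exact le_of_eq (hP.norm x hxS _ (hmin_nonneg hne hl x))

include hP in
/-- Upper bound for the forest part along one walk. -/
theorem l1_treePart_le_wlen (hG : G.Connected) (hl : ∀ e ∈ G.edgeSet, 0 ≤ l e) {x y : V}
    (p : G.Walk x y) :
    l1 (treePart G l A hne P x) (treePart G l A hne P y) ≤ 3 * wlen G l p := by
  have hw0 : 0 ≤ wlen G l p := wlen_nonneg hl p
  by_cases hex : ∃ a ∈ A, a ∈ p.support
  · obtain ⟨a, haA, hap⟩ := hex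
    have h1 : wdist G l x a + wdist G l a y ≤ wlen G l p := wdist_add_le_wlen_of_mem hl p hap
    have h2 : hmin G l A hne x ≤ wdist G l x a := hmin_le hne haA x
    have h3 : hmin G l A hne y ≤ wdist G l y a := hmin_le hne haA y
    have h4 : wdist G l y a = wdist G l a y := wdist_comm y a
    have h5 := l1_treePart_zero_le hne hP hl x
    have h6 := l1_treePart_zero_le hne hP hl y
    have h7 := l1_triangle (treePart G l A hne P x) 0 (treePart G l A hne P y)
    have h8 := l1_comm (0 : V → ℝ) (treePart G l A hne P y)
    linarith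
  · have hav : ∀ v ∈ p.support, v ∉ A := fun v hv hvA => hex ⟨v, hvA, hv⟩
    have hx : x ∉ A := hav x p.start_mem_support
    have hy : y ∉ A := hav y p.end_mem_support
    obtain ⟨q, hq1, hq2⟩ := exists_off_walk (l := l) p hav
    have hxS : x ∈ Finset.univ.filter (fun v => v ∉ A) := by simp [hx]
    have hyS : y ∈ Finset.univ.filter (fun v => v ∉ A) := by simp [hy]
    have hqS : ∀ v ∈ q.support, v ∈ Finset.univ.filter (fun v => v ∉ A) := by
      intro v hv
      simp [hq2 v hv]
    have hhx := hmin_nonneg (A := A) hne hl x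
    have hhy := hmin_nonneg (A := A) hne hl y
    have h1 := hP.walk_le q hqS (hmin G l A hne x) hhx
    have h2 := hP.lip y hyS (hmin G l A hne x) (hmin G l A hne y) hhx hhy
    have h3 := abs_hmin_sub_le (A := A) hne hG hl x y
    have h4 := wdist_le_wlen hl p
    have h5 := l1_triangle (P x (hmin G l A hne x)) (P y (hmin G l A hne x))
      (P y (hmin G l A hne y))
    unfold treePart
    rw [if_neg hx, if_neg hy]
    linarith

include hP in
/-- Upper bound for the forest part. -/
theorem l1_treePart_le (hG : G.Connected) (hl : ∀ e ∈ G.edgeSet, 0 ≤ l e) (x y : V) :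
    l1 (treePart G l A hne P x) (treePart G l A hne P y) ≤ 3 * wdist G l x y := by
  have h : l1 (treePart G l A hne P x) (treePart G l A hne P y) / 3 ≤ wdist G l x y := by
    apply le_wdist hG
    intro p
    have := l1_treePart_le_wlen hne hP hG hl p
    linarith
  linarith

end Vale.Agent.P235
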