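import Vale.Agent.P235.Basic

/-!
# P235: basic facts on the shortest path distance `wdist`
-/

namespace Vale.Agent.P235

open SimpleGraph

variable {V : Type*} {G : SimpleGraph V} {l : Sym2 V → ℝ}

theorem wdist_le_wlen (hl : ∀ e ∈ G.edgeSet, 0 ≤ l e) {x y : V} (p : G.Walk x y) :
    wdist G l x y ≤ wlen G l p := by
  unfold wdist
  refine ciInf_le ⟨0, ?_⟩ p
  rintro _ ⟨q, rfl⟩
  exact wlen_nonneg hl q

theorem le_wdist (hG : G.Connected) {x y : V} {B : ℝ} (h : ∀ p : G.Walk x y, B ≤ wlen G l p) :
    B ≤ wdist G l x y := by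
  unfold wdist
  have : Nonempty (G.Walk x y) := hG.preconnected x y
  exact le_ciInf h

theorem wdist_nonneg (hl : ∀ e ∈ G.edgeSet, 0 ≤ l e) (x y : V) : 0 ≤ wdist G l x y := by
  unfold wdist
  exact Real.iInf_nonneg (fun p => wlen_nonneg hl p)

theorem wdist_self (hl : ∀ e ∈ G.edgeSet, 0 ≤ l e) (x : V) : wdist G l x x = 0 := by
  refine le_antisymm ?_ (wdist_nonneg hl x x)
  have := wdist_le_wlen hl (Walk.nil : G.Walk x x)
  simpa using this

theorem wdist_comm (x y : V) : wdist G l x y = wdist G l y x := by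
  unfold wdist
  let e : G.Walk x y ≃ G.Walk y x :=
    { toFun := fun p => p.reverse
      invFun := fun p => p.reverse
      left_inv := fun p => by simp
      right_inv := fun p => by simp }
  refine Equiv.iInf_congr e ?_
  intro p
  exact wlen_reverse G l p

theorem wdist_triangle (hG : G.Connected) (hl : ∀ e ∈ G.edgeSet, 0 ≤ l e) (x y z : V) :
    wdist G l x z ≤ wdist G l x y + wdist G l y z := by
  have h1 : ∀ q : G.Walk y z, wdist G l x z - wlen G l q ≤ wdist G l x y := by
    intro q
    refine le_wdist hG ?_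
    intro p
    have := wdist_le_wlen hl (p.append q)
    rw [wlen_append] at this
    linarith
  have h2 : wdist G l x z - wdist G l x y ≤ wdist G l y z := by
    refine le_wdist hG ?_
    intro q
    have := h1 q
    linarith
  linarith

/-- `|d(x,a) - d(y,a)| ≤ d(x,y)`. -/
theorem abs_wdist_sub_le (hG : G.Connected) (hl : ∀ e ∈ G.edgeSet, 0 ≤ l e) (x y a : V) :
    |wdist G l x a - wdist G l y a| ≤ wdist G l x y := by
  rw [abs_le]
  have h1 := wdist_triangle hG hl x y a
  have h2 := wdist_triangle hG hl y x a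
  have h3 : wdist G l y x = wdist G l x y := wdist_comm y x
  constructor <;> linarith

/-- A walk through `a` is at least as long as `d(x,a) + d(a,y)`. -/
theorem wdist_add_le_wlen_of_mem [DecidableEq V] (hl : ∀ e ∈ G.edgeSet, 0 ≤ l e) {x y a : V}
    (p : G.Walk x y) (ha : a ∈ p.support) :
    wdist G l x a + wdist G l a y ≤ wlen G l p := by
  have h := Walk.take_spec p ha
  have h1 := wdist_le_wlen hl (p.takeUntil a ha)
  have h2 := wdist_le_wlen hl (p.dropUntil a ha)
  have h3 : wlen G l p = wlen G l (p.takeUntil a ha) + wlen G l (p.dropUntil a ha) := by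
    rw [← wlen_append, h]
  linarith

end Vale.Agent.P235
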